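import Vale.Agent.Lib.P230.Mono

namespace Vale.Agent.Results.P230.MonotoneInDimension

open Vale.Agent.Lib.P230

/-- **The worst-case translative covering density `Θ_T(n)` is nondecreasing in the dimension,
and `θ_T` is invariant under passing to the prism `K × [0, 1]`.**

* `Θ_T(m) ≤ Θ_T(n)` for all `m ≤ n`, where `Θ_T(n)` (`transCovSup n`) is the supremum of the
  translative covering density `θ_T(K)` over all convex bodies `K ⊆ ℝⁿ`, as in the problem.
* For every bounded set `K ⊆ ℝⁿ` (in particular for every convex body),
  `θ_T(K × [0, 1]) = θ_T(K)`, where `K × [0, 1] ⊆ ℝⁿ⁺¹` is the prism over `K`.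

`≤`: a covering of `ℝⁿ` by translates of `K` is stacked at the integer heights.  `≥`: given a
covering of `ℝⁿ⁺¹` by translates of the prism, a horizontal slice of a large cube at a generic
height is covered by few of them; their projections, repeated periodically, cover `ℝⁿ` with `K`
at a density that is not larger in the limit. -/
theorem result :
    (∀ m n : ℕ, m ≤ n → transCovSup m ≤ transCovSup n) ∧
    ∀ (n : ℕ) (K : Set (Fin n → ℝ)), Bornology.IsBounded K →
      transCovDensity {x : Fin (n + 1) → ℝ | Fin.init x ∈ K ∧ x (Fin.last n) ∈ Set.Icc (0 : ℝ) 1}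
        = transCovDensity K := by
  refine ⟨fun m n hmn => ?_, fun n K hK => transCovDensity_prism K hK⟩
  induction n, hmn using Nat.le_induction with
  | base => exact le_rfl
  | succ k _ ih => exact ih.trans (transCovSup_le_succ k)

end Vale.Agent.Results.P230.MonotoneInDimension
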